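import Vale.Agent.P126.Cube

/-!
# P126: a necessary trade-off between the two constants of the duality conjecture

If the two inequalities of the duality conjecture hold with constants `a, b ≥ 1`, then for every
`n ≥ 1` with `a < 1 + 1/n` one must have `2 ^ n ≤ (2 n + 1) ^ b`.  Consequently `a = 1` is
impossible for every `b`, and for every `b` the conjecture fails for some `a > 1`.
The witnesses are `K = l · [-1,1]^n`, `L = [-1,1]^n` with `a l = 1 + 1/n`.
-/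

namespace Vale.Agent.Results.P126.ScaleFactorTradeoff

open Vale.Agent.P126
open scoped Pointwise

theorem witness (n : ℕ) (hn : 1 ≤ n) (a : ℝ) (ha : 1 ≤ a) (han : a < 1 + 1 / (n : ℝ)) :
    ∃ K L : Set (EuclideanSpace ℝ (Fin n)), SymmBody K ∧ SymmBody L ∧
      2 ^ n ≤ covNum K L ∧ covNum (polar L) (a⁻¹ • polar K) ≤ 2 * n + 1 := by
  have ha0 : 0 < a := by linarith
  set l : ℝ := (1 + 1 / (n : ℝ)) / a with hl
  have hl1 : 1 < l := by rw [hl, lt_div_iff₀ ha0]; linarith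
  have hl0 : 0 < l := by linarith
  have hal : a * l = 1 + 1 / (n : ℝ) := by rw [hl]; field_simp
  exact ⟨cube n l, cube n 1, cube_symmBody hl0, cube_symmBody one_pos,
    two_pow_le_covNum_cube hl1, covNum_polar_cube_le (n := n) ha0 hn hal⟩

theorem tradeoff (a b : ℝ) (ha : 1 ≤ a) (hb : 1 ≤ b) (h : DualityHolds a b) (n : ℕ) (hn : 1 ≤ n)
    (han : a < 1 + 1 / (n : ℝ)) : (2 : ℝ) ^ n ≤ (2 * (n : ℝ) + 1) ^ b := by
  obtain ⟨K, L, hK, hL, h3, h4⟩ := witness n hn a ha han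
  obtain ⟨-, h2⟩ := h n hn K L hK hL
  have h5 : Real.log ((2 : ℝ) ^ n) ≤ Real.log (covNum K L) := by
    apply Real.log_le_log (by positivity)
    exact_mod_cast h3
  have h6 : Real.log (covNum (polar L) (a⁻¹ • polar K)) ≤ Real.log (2 * (n : ℝ) + 1) := by
    rcases Nat.eq_zero_or_pos (covNum (polar L) (a⁻¹ • polar K)) with h0 | h0
    · rw [h0]
      simp only [Nat.cast_zero, Real.log_zero]
      apply Real.log_nonneg
      have : (0 : ℝ) ≤ n := Nat.cast_nonneg n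
      linarith
    · apply Real.log_le_log (by exact_mod_cast h0)
      exact_mod_cast h4
  have h7 : Real.log ((2 : ℝ) ^ n) ≤ Real.log ((2 * (n : ℝ) + 1) ^ b) := by
    rw [Real.log_rpow (by positivity)]
    calc Real.log ((2 : ℝ) ^ n) ≤ _ := h5
      _ ≤ _ := h2
      _ ≤ _ := by gcongr
  exact (Real.log_le_log_iff (by positivity) (by positivity)).1 h7

theorem exists_large (b : ℝ) : ∃ n : ℕ, 1 ≤ n ∧ (2 * (n : ℝ) + 1) ^ b < (2 : ℝ) ^ n := by
  obtain ⟨k, hk⟩ := exists_nat_ge b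
  have h1 : Filter.Tendsto (fun n : ℕ => (n : ℝ) ^ k / (2 : ℝ) ^ n) Filter.atTop (nhds 0) :=
    tendsto_pow_const_div_const_pow_of_one_lt k (by norm_num)
  have h2 : ∀ᶠ n : ℕ in Filter.atTop, (n : ℝ) ^ k / (2 : ℝ) ^ n < 1 / 3 ^ k :=
    h1.eventually (gt_mem_nhds (by positivity))
  obtain ⟨n, hn1, hn2⟩ := (h2.and (Filter.eventually_ge_atTop 1)).exists
  refine ⟨n, hn2, ?_⟩
  have hn0 : (1 : ℝ) ≤ n := by exact_mod_cast hn2
  rw [div_lt_div_iff₀ (by positivity) (by positivity)] at hn1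
  calc (2 * (n : ℝ) + 1) ^ b ≤ (2 * (n : ℝ) + 1) ^ (k : ℝ) :=
        Real.rpow_le_rpow_of_exponent_le (by linarith) hk
    _ = (2 * (n : ℝ) + 1) ^ k := Real.rpow_natCast _ _
    _ ≤ (3 * (n : ℝ)) ^ k := by gcongr; linarith
    _ = (n : ℝ) ^ k * 3 ^ k := by rw [mul_pow]; ring
    _ < 1 * (2 : ℝ) ^ n := hn1
    _ = (2 : ℝ) ^ n := one_mul _

/-- **Trade-off between scale and factor in the duality conjecture.** -/
theorem result :
    (∀ n : ℕ, 1 ≤ n → ∀ a : ℝ, 1 ≤ a → a < 1 + 1 / (n : ℝ) →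
      ∃ K L : Set (EuclideanSpace ℝ (Fin n)), SymmBody K ∧ SymmBody L ∧
        2 ^ n ≤ covNum K L ∧ covNum (polar L) (a⁻¹ • polar K) ≤ 2 * n + 1) ∧
    (∀ a b : ℝ, 1 ≤ a → 1 ≤ b → DualityHolds a b →
      ∀ n : ℕ, 1 ≤ n → a < 1 + 1 / (n : ℝ) → (2 : ℝ) ^ n ≤ (2 * (n : ℝ) + 1) ^ b) ∧
    (∀ b : ℝ, 1 ≤ b → ¬ DualityHolds 1 b) ∧
    (∀ b : ℝ, 1 ≤ b → ∃ a : ℝ, 1 < a ∧ ¬ DualityHolds a b) := by
  refine ⟨witness, tradeoff, ?_, ?_⟩
  · intro b hb h
    obtain ⟨n, hn, hlt⟩ := exists_large b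
    have hn0 : (0 : ℝ) < n := by exact_mod_cast hn
    have := tradeoff 1 b le_rfl hb h n hn (by
      have : 0 < 1 / (n : ℝ) := by positivity
      linarith)
    linarith
  · intro b hb
    obtain ⟨n, hn, hlt⟩ := exists_large b
    have hn0 : (0 : ℝ) < n := by exact_mod_cast hn
    have hpos : 0 < 1 / (2 * (n : ℝ)) := by positivity
    refine ⟨1 + 1 / (2 * (n : ℝ)), by linarith, ?_⟩
    intro h
    have := tradeoff _ b (by linarith) hb h n hn (by
      have : 1 / (2 * (n : ℝ)) < 1 / (n : ℝ) := by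
        apply one_div_lt_one_div_of_lt hn0; linarith
      linarith)
    linarith

end Vale.Agent.Results.P126.ScaleFactorTradeoff
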