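import Vale.Agent.Results.P126.QuasiPolyDuality
import Vale.Agent.Results.P126.ScaleFactorTradeoff

/-!
# P126: the two results on the duality conjecture, stated with Mathlib notions only

`N n A B` is the covering number of `A` by translates of `B` in `ℝⁿ` and `pol n K` the polar body;
both are pinned down by their defining equations, so the statement uses no definition of ours.
-/

namespace Vale.Agent.Results.P126.PlainCombined

open Vale.Agent.P126
open scoped Pointwise

theorem result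
    (N : ∀ n : ℕ, Set (EuclideanSpace ℝ (Fin n)) → Set (EuclideanSpace ℝ (Fin n)) → ℕ)
    (hN : ∀ (n : ℕ) (A B : Set (EuclideanSpace ℝ (Fin n))),
      N n A B = sInf {k : ℕ | ∃ c : Fin k → EuclideanSpace ℝ (Fin n), A ⊆ ⋃ i, (c i +ᵥ B)})
    (pol : ∀ n : ℕ, Set (EuclideanSpace ℝ (Fin n)) → Set (EuclideanSpace ℝ (Fin n)))
    (hpol : ∀ (n : ℕ) (K : Set (EuclideanSpace ℝ (Fin n))),
      pol n K = {y | ∀ x ∈ K, inner ℝ x y ≤ 1})
    (Body : ∀ n : ℕ, Set (EuclideanSpace ℝ (Fin n)) → Prop)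
    (hBody : ∀ (n : ℕ) (K : Set (EuclideanSpace ℝ (Fin n))),
      Body n K ↔ (IsCompact K ∧ Convex ℝ K ∧ (interior K).Nonempty ∧ ∀ x ∈ K, -x ∈ K)) :
    -- (1) both inequalities at the absolute scale 20, with a cubic right-hand side
    (∀ (n : ℕ) (K L : Set (EuclideanSpace ℝ (Fin n))), Body n K → Body n L →
      Real.log (N n (pol n L) ((20 : ℝ) • pol n K)) ≤ 73 * (Real.log (N n K L)) ^ 3 ∧
      Real.log (N n K L) ≤ 73 * (Real.log (N n (pol n L) ((20 : ℝ)⁻¹ • pol n K))) ^ 3) ∧
    -- (2) the same in the shape of the conjecture: a = 20 and any factor b that dominates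
    -- 73 (log N)^2 for the two covering numbers on the right-hand sides
    (∀ (n : ℕ) (K L : Set (EuclideanSpace ℝ (Fin n))), Body n K → Body n L → ∀ b : ℝ, 0 < b →
      73 * (Real.log (N n K L)) ^ 2 ≤ b →
      73 * (Real.log (N n (pol n L) ((20 : ℝ)⁻¹ • pol n K))) ^ 2 ≤ b →
      (1 / b) * Real.log (N n (pol n L) ((20 : ℝ) • pol n K)) ≤ Real.log (N n K L) ∧
      Real.log (N n K L) ≤ b * Real.log (N n (pol n L) ((20 : ℝ)⁻¹ • pol n K))) ∧
    -- (3) constraints on any pair of absolute constants for which the conjecture holds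
    (∀ a b : ℝ, 1 ≤ a → 1 ≤ b →
      (∀ n : ℕ, 1 ≤ n → ∀ K L : Set (EuclideanSpace ℝ (Fin n)), Body n K → Body n L →
        (1 / b) * Real.log (N n (pol n L) (a • pol n K)) ≤ Real.log (N n K L) ∧
        Real.log (N n K L) ≤ b * Real.log (N n (pol n L) (a⁻¹ • pol n K))) →
      1 < a ∧ ∀ n : ℕ, 1 ≤ n → a < 1 + 1 / (n : ℝ) → (2 : ℝ) ^ n ≤ (2 * (n : ℝ) + 1) ^ b) := by
  have eN : N = fun n => covNum (n := n) := by
    funext n A B; rw [hN]; rfl
  have ep : pol = fun n => polar (n := n) := by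
    funext n K; rw [hpol]; rfl
  subst eN ep
  have hB : ∀ (n : ℕ) (K : Set (EuclideanSpace ℝ (Fin n))), Body n K → SymmBody K :=
    fun n K h => by
      obtain ⟨h1, h2, h3, h4⟩ := (hBody n K).1 h
      exact ⟨h1, h2, h3, h4⟩
  have hB' : ∀ (n : ℕ) (K : Set (EuclideanSpace ℝ (Fin n))), SymmBody K → Body n K :=
    fun n K h => (hBody n K).2 ⟨h.isCompact, h.convex, h.interior_nonempty, h.symm⟩
  refine ⟨?_, ?_, ?_⟩
  · intro n K L hK hL
    exact QuasiPolyDuality.result n K L (hB n K hK) (hB n L hL)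
  · intro n K L hK hL b hb h1 h2
    obtain ⟨g1, g2⟩ := QuasiPolyDuality.result n K L (hB n K hK) (hB n L hL)
    have y0 : 0 ≤ Real.log (covNum K L) := Real.log_natCast_nonneg _
    have z0 : 0 ≤ Real.log (covNum (polar L) ((20 : ℝ)⁻¹ • polar K)) :=
      Real.log_natCast_nonneg _
    constructor
    · rw [one_div, inv_mul_le_iff₀ hb]
      calc _ ≤ 73 * (Real.log (covNum K L)) ^ 3 := g1
        _ = (73 * (Real.log (covNum K L)) ^ 2) * Real.log (covNum K L) := by ring
        _ ≤ b * Real.log (covNum K L) := by gcongr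
    · calc _ ≤ 73 * (Real.log (covNum (polar L) ((20 : ℝ)⁻¹ • polar K))) ^ 3 := g2
        _ = (73 * (Real.log (covNum (polar L) ((20 : ℝ)⁻¹ • polar K))) ^ 2) *
            Real.log (covNum (polar L) ((20 : ℝ)⁻¹ • polar K)) := by ring
        _ ≤ b * Real.log (covNum (polar L) ((20 : ℝ)⁻¹ • polar K)) := by gcongr
  · intro a b ha hb h
    have hD : DualityHolds a b := fun n hn K L hK hL => h n hn K L (hB' n K hK) (hB' n L hL)
    obtain ⟨-, t2, t3, -⟩ := ScaleFactorTradeoff.result
    refine ⟨?_, fun n hn han => t2 a b ha hb hD n hn han⟩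
    rcases eq_or_lt_of_le ha with h1 | h1
    · exact absurd (h1 ▸ hD) (t3 b hb)
    · exact h1

end Vale.Agent.Results.P126.PlainCombined
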