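import Vale.Agent.P126.Packing
import Vale.Agent.P126.PolarFacts

/-!
# P126: duality of metric entropy with an absolute scale and a quasi-polynomial loss

For all origin-symmetric convex bodies `K, L` in `ℝⁿ` (any `n`):
`log N(L°, 20 K°) ≤ 73 (log N(K,L))³` and `log N(K,L) ≤ 73 (log N(L°, K°/20))³`.

The proof bounds separated families of functionals by a combinatorial packing lemma of
Alon, Ben-David, Cesa-Bianchi, Haussler type (`Shatter.lean`): a large separated family strongly
shatters a large subset of a net of `K`; a shattered subset spans a well embedded cross-polytope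
in `K`, which by a Gilbert-Varshamov code (`Code.lean`) forces `N(K,L)` to be exponentially large
in the size of the subset.
-/

namespace Vale.Agent.Results.P126.QuasiPolyDuality

open Vale.Agent.P126
open scoped Pointwise

variable {n : ℕ}

theorem log_natCast_mono {a b : ℕ} (h : a ≤ b) : Real.log a ≤ Real.log b := by
  rcases Nat.eq_zero_or_pos a with h0 | h0
  · rw [h0]; simpa using Real.log_natCast_nonneg b
  · exact Real.log_le_log (by exact_mod_cast h0) (by exact_mod_cast h)

theorem dual_le {K L : Set (EuclideanSpace ℝ (Fin n))} (hK : SymmBody K) (hL : SymmBody L) :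
    Real.log (covNum (polar L) ((20 : ℝ) • polar K)) ≤ 73 * (Real.log (covNum K L)) ^ 3 := by
  obtain ⟨c, hc⟩ := covNum_spec hK.isCompact hL.interior_nonempty
  have S : Setup K (polar L) (covNum K L) (fun i => c i +ᵥ L) :=
    { hKc := hK.convex
      hKs := hK.symm
      hUc := polar_convex L
      hUs := polar_symm hL.symm
      hcov := hc
      hdiam := by
        rintro i x ⟨l, hl, rfl⟩ x' ⟨l', hl', rfl⟩ y hy
        have h1 := hy l hl
        have h2 := hy (-l') (hL.symm l' hl')
        have e : (c i +ᵥ l) - (c i +ᵥ l') = l + -l' := by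
          simp only [vadd_eq_add]; abel
        simp only [] at e ⊢
        rw [e, inner_add_left]
        linarith }
  obtain ⟨T, hT, hTlog⟩ := cover_of_packing_bound (U := polar L) (W := (20 : ℝ) • polar K)
    ⟨0, zero_mem_polar K, by simp⟩
    (by
      rintro w ⟨p, hp, rfl⟩
      exact ⟨-p, polar_symm hK.symm p hp, by simp⟩)
    (73 * (Real.log (covNum K L)) ^ 3)
    (by
      intro T h1 h2
      apply S.packing T h1
      intro t ht t' ht' hne
      have := h2 t ht t' ht' hne
      rw [Set.mem_smul_set_iff_inv_smul_mem₀ (by norm_num : (20 : ℝ) ≠ 0)] at this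
      simp only [polar, Set.mem_ofPred_eq] at this
      push Not at this
      obtain ⟨x, hx, hx'⟩ := this
      refine ⟨x, hx, ?_⟩
      rw [real_inner_smul_right] at hx'
      linarith)
  exact le_trans (log_natCast_mono (covNum_le_finset_card T hT)) hTlog

theorem primal_le {K L : Set (EuclideanSpace ℝ (Fin n))} (hK : SymmBody K) (hL : SymmBody L) :
    Real.log (covNum K L) ≤ 73 * (Real.log (covNum (polar L) ((20 : ℝ)⁻¹ • polar K))) ^ 3 := by
  classical
  obtain ⟨c, hc⟩ := covNum_spec (B := (20 : ℝ)⁻¹ • polar K) hL.polar.isCompact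
    (interior_smul_nonempty hK.polar.interior_nonempty (by norm_num))
  have S : Setup (polar L) ((20 : ℝ) • K) (covNum (polar L) ((20 : ℝ)⁻¹ • polar K))
      (fun i => c i +ᵥ ((20 : ℝ)⁻¹ • polar K)) :=
    { hKc := polar_convex L
      hKs := polar_symm hL.symm
      hUc := hK.convex.smul 20
      hUs := by
        rintro w ⟨p, hp, rfl⟩
        exact ⟨-p, hK.symm p hp, by simp⟩
      hcov := hc
      hdiam := by
        rintro i x ⟨_, ⟨p, hp, rfl⟩, rfl⟩ x' ⟨_, ⟨p', hp', rfl⟩, rfl⟩ y ⟨k, hk, rfl⟩
        have h1 := hp k hk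
        have h2 := hp' (-k) (hK.symm k hk)
        have e : (c i +ᵥ (20 : ℝ)⁻¹ • p) - (c i +ᵥ (20 : ℝ)⁻¹ • p') = (20 : ℝ)⁻¹ • (p - p') := by
          simp only [vadd_eq_add, smul_sub]; abel
        simp only [] at e ⊢
        rw [e, real_inner_smul_left, real_inner_smul_right, inner_sub_left, real_inner_comm k p,
          real_inner_comm k p']
        rw [inner_neg_left] at h2
        linarith }
  obtain ⟨T, hT, hTlog⟩ := cover_of_packing_bound (U := K) (W := L) hL.zero_mem hL.symm
    (73 * (Real.log (covNum (polar L) ((20 : ℝ)⁻¹ • polar K))) ^ 3)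
    (by
      intro T h1 h2
      have hinj : Function.Injective (fun t : EuclideanSpace ℝ (Fin n) => (20 : ℝ) • t) :=
        smul_right_injective _ (by norm_num)
      have hcard : (T.image (fun t => (20 : ℝ) • t)).card = T.card :=
        Finset.card_image_of_injective _ hinj
      rw [← hcard]
      apply S.packing
      · intro y hy
        obtain ⟨t, ht, rfl⟩ := Finset.mem_image.1 hy
        exact ⟨t, h1 t ht, rfl⟩
      · intro u hu u' hu' hne
        obtain ⟨t, ht, rfl⟩ := Finset.mem_image.1 hu
        obtain ⟨t', ht', rfl⟩ := Finset.mem_image.1 hu'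
        have hne' : t ≠ t' := fun h => hne (by rw [h])
        obtain ⟨y, hy, hy'⟩ := exists_polar_gt hL (h2 t ht t' ht' hne')
        refine ⟨y, hy, ?_⟩
        rw [← smul_sub, real_inner_smul_right]
        linarith)
  exact le_trans (log_natCast_mono (covNum_le_finset_card T hT)) hTlog

/-- **Duality of metric entropy with absolute scale `20` and factor `73 (log N)²`.** -/
theorem result : ∀ (n : ℕ) (K L : Set (EuclideanSpace ℝ (Fin n))), SymmBody K → SymmBody L →
    Real.log (covNum (polar L) ((20 : ℝ) • polar K)) ≤ 73 * (Real.log (covNum K L)) ^ 3 ∧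
    Real.log (covNum K L) ≤ 73 * (Real.log (covNum (polar L) ((20 : ℝ)⁻¹ • polar K))) ^ 3 :=
  fun _ _ _ hK hL => ⟨dual_le hK hL, primal_le hK hL⟩

end Vale.Agent.Results.P126.QuasiPolyDuality
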